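import Vale.Agent.P328RAM.FinalThm

/-!
# P328: approximate counting of contingency tables with arbitrary margins
-/

namespace Vale.Agent.Results.P328.Fpras

open Vale.Agent.P328RAM

/-- There is a fully polynomial randomized approximation scheme for the number of contingency
tables, with no restriction on the numbers of rows and columns and on the margins (which are
written in binary). -/
theorem result : ∃ prog : Cmd, IsFPRAS prog := fpras

end Vale.Agent.Results.P328.Fpras
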