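import Vale.Agent.P328RAM.FinalThm

/-!
# P328: the explicit algorithm as a random process
-/

namespace Vale.Agent.Results.P328.Native

open Vale.Agent.P328RAM Vale.Agent.P328R

/-- The explicit annealed Markov chain algorithm: `counts` runs `numS = X ^ 22` passes through
`numP = 2 * max m n ^ 2 * size N` phases, each of `numT = X ^ K` elementary Metropolis steps on
integer tables, where `X = m + n + size N + a + D + 2`. The product of the inverse frequencies is,
with probability at least `1 - 2 ^ (-D)`, within the factors `1 ± 1 / a` of the number of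
contingency tables. -/
theorem result {m n : ℕ} (hm : 1 ≤ m) (hn : 1 ≤ n) (r : Fin m → ℕ) (c : Fin n → ℕ)
    (hrc : ∑ i, r i = ∑ j, c j) (a D K : ℕ) (ha : 1 ≤ a) (hK : 5404 ≤ K) :
    ENNReal.ofReal (1 - 1 / 2 ^ D) ≤
      (counts (parOf K m n (∑ i, r i) a D) (gOf r c) m n (numT K m n (∑ i, r i) a D)
        (numP m n (∑ i, r i)) (numS m n (∑ i, r i) a D)).toOuterMeasure
      {cnt | (1 - 1 / (a : ℝ)) * (tables r c).ncard ≤
          ∏ k ∈ Finset.range (numP m n (∑ i, r i)),
            (numS m n (∑ i, r i) a D : ℝ) / (cnt k : ℝ) ∧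
        ∏ k ∈ Finset.range (numP m n (∑ i, r i)),
            (numS m n (∑ i, r i) a D : ℝ) / (cnt k : ℝ) ≤
          (1 + 1 / (a : ℝ)) * (tables r c).ncard} := by
  have hcf := counts_final (phaseFacts K) hK (gOf_valid hm hn hrc) (a := a) (D := D)
    (tot_gOf r c) ha
  rw [card_OmegaF] at hcf
  refine prob_ge _ (by positivity) ?_ hcf
  intro cnt hcnt h
  exact hcnt h

end Vale.Agent.Results.P328.Native
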